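import Vale.Agent.P218.Assembly

/-! # Tangent flows of integral Brakke flows: uniqueness, or wild behaviour

For every `m`-dimensional integral Brakke flow `(μ_t)_{t ≥ 0}` of finite mass in a Euclidean space
`E` (in particular for every weak flow of problem P218, where `E = ℝ³` and `m = 2`) and every
space-time point `(x₀, t₀)` with `t₀ > 0`:

* tangent flows exist, they are self-similar, and the set of all of them is compact and connected;
* either the tangent flow is unique, and then all off-centre density ratios converge, or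
  (1) there are at least continuum many tangent flows;
  (2) `∑ √(log (r_k / r_{k+1}) (Θ(r_k) - Θ(r_{k+1})))` diverges for every sequence of scales;
  (3) the density ratio `Θ(r)` converges slower than `1 / (|log r| (log |log r|)^{2+δ})`, `δ > 0`;
  (4) the rescalings do not converge along any sequence of scales with
      `log (r_k / r_{k+1}) (Θ(r_k) - Θ(r_{k+1})) → 0`, for instance along any sequence with
      bounded ratios `r_k / r_{k+1}`;
  (5) for almost every `y ∈ E` the off-centre density ratio at `x₀ + r y` has no limit. -/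

open MeasureTheory Set Filter Topology
open scoped ENNReal

namespace Vale.Agent.Results.P218.Dichotomy

open Vale.Agent.P218

/-- Main theorem. -/
theorem result {E : Type*} [NormedAddCommGroup E] [InnerProductSpace ℝ E] [FiniteDimensional ℝ E]
    [MeasurableSpace E] [BorelSpace E] (m : ℕ) (μ : ℝ → Measure E)
    (hμ : IsIntegralBrakkeFlow m μ) (hfin : μ 0 univ < ⊤) (x₀ : E) (t₀ : ℝ) (ht₀ : 0 < t₀) :
    ((tangentSlices m μ x₀ t₀).Nonempty ∧
      @IsCompact _ (weakTopology E) (tangentSlices m μ x₀ t₀) ∧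
      @IsConnected _ (weakTopology E) (tangentSlices m μ x₀ t₀) ∧
      ∀ ν, IsTangentFlow m μ x₀ t₀ ν → ∀ s < 0,
        ν s = ENNReal.ofReal (√(-s) ^ m) • (ν (-1)).map (fun x => √(-s) • x)) ∧
    ((TangentFlowUnique m μ x₀ t₀ ∧
        ∀ y : E, ∃ l, Tendsto (fun r => densityRatio m μ (x₀ + r • y) t₀ r) (𝓝[>] 0) (𝓝 l)) ∨
      (¬ TangentFlowUnique m μ x₀ t₀ ∧
        Cardinal.continuum ≤ Cardinal.mk (tangentSlices m μ x₀ t₀) ∧
        (∀ r : ℕ → ℝ, IsScaleSeq t₀ r → ¬ Summable fun k =>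
          √(Real.log (r k / r (k + 1)) *
            (densityRatio m μ x₀ t₀ (r k) - densityRatio m μ x₀ t₀ (r (k + 1))))) ∧
        (∃ Θ₀, Tendsto (fun r => densityRatio m μ x₀ t₀ r) (𝓝[>] 0) (𝓝 Θ₀) ∧
          ∀ δ : ℝ, 0 < δ → ∀ C : ℝ, ∃ᶠ r in 𝓝[>] (0 : ℝ),
            C / (Real.log (1 / r) * Real.log (Real.log (1 / r)) ^ (2 + δ)) <
              densityRatio m μ x₀ t₀ r - Θ₀) ∧
        (∀ r : ℕ → ℝ, IsScaleSeq t₀ r →
          Tendsto (fun k => Real.log (r k / r (k + 1)) *
            (densityRatio m μ x₀ t₀ (r k) - densityRatio m μ x₀ t₀ (r (k + 1)))) atTop (𝓝 0) →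
          ∀ κ : Measure E, ¬ WeakTendsto (fun k => rescaled m μ x₀ t₀ (1 / r k) (-1)) κ) ∧
        ∀ᵐ y : E, ¬ ∃ l,
          Tendsto (fun r => densityRatio m μ (x₀ + r • y) t₀ r) (𝓝[>] 0) (𝓝 l))) := by
  obtain ⟨T, H, hB⟩ := H552.exists_BF hμ
  have hS := H552.slow_NN hB hfin x₀ ht₀
  have hE := energy_NN hB hfin x₀ ht₀
  obtain ⟨C, hG⟩ := gb_NN hB hfin x₀ ht₀
  have hL := H552.tangentSlices_eq hB hfin x₀ ht₀
  have hU := unique_iff hB hfin x₀ ht₀
  have hoff : ∀ (y : E) (l : ℝ),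
      Tendsto (fun r => densityRatio m μ (x₀ + r • y) t₀ r) (𝓝[>] 0) (𝓝 l) ↔
      Tendsto (fun τ => (√(4 * Real.pi) ^ m)⁻¹ * gi (H552.NN m μ x₀ t₀ τ) y) atTop (𝓝 l) :=
    fun y l => tendsto_iff_log _ _ (fun r hr => densityRatio_eq m μ x₀ y t₀ hr) l
  refine ⟨⟨?_, ?_, ?_, ?_⟩, ?_⟩
  · rw [hL]; exact hS.nonempty_limitSet
  · rw [hL]; exact hS.isCompact_limitSet
  · rw [hL]; exact hS.isConnected_limitSet
  · intro ν hν s hs
    exact H552.selfSimilar hB hfin x₀ ht₀ hν hs
  by_cases hun : TangentFlowUnique m μ x₀ t₀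
  · refine Or.inl ⟨hun, fun y => ?_⟩
    have h1 := hU.1 hun
    rw [hL] at h1
    obtain ⟨l, hl⟩ := hS.tendsto_of_subsingleton hG h1 (weakCont_gi C y)
    exact ⟨_, (hoff y _).2 (hl.const_mul _)⟩
  · refine Or.inr ⟨hun, ?_, ?_, ?_, ?_, ?_⟩
    · rw [hU, hL] at hun
      rw [hL]
      exact hS.continuum_le hun
    · intro r hr hsum
      exact hun (unique_of_summable hB hfin x₀ ht₀ hr hsum)
    · obtain ⟨Θ₀, hΘ, _⟩ := tendsto_center hB hfin x₀ ht₀
      refine ⟨Θ₀, hΘ, fun δ hδ C => ?_⟩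
      by_contra hcon
      rw [Filter.not_frequently] at hcon
      refine hun (unique_of_rate hB hfin x₀ ht₀ hΘ hδ (C := C) ?_)
      filter_upwards [hcon] with r hr
      exact not_lt.1 hr
    · intro r hr hgap κ hκ
      exact hun (unique_of_gaps hB hfin x₀ ht₀ hr hgap hκ)
    · have h1 : ¬ (limitSet (H552.NN m μ x₀ t₀)).Subsingleton := by rwa [hU, hL] at hun
      filter_upwards [hS.ae_not_tendsto hG h1] with y hy
      rintro ⟨l, hl⟩
      refine hy ⟨√(4 * Real.pi) ^ m * l, ?_⟩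
      have h2 := ((hoff y l).1 hl).const_mul (√(4 * Real.pi) ^ m)
      refine h2.congr fun τ => ?_
      rw [← mul_assoc, mul_inv_cancel₀ (by positivity), one_mul]

end Vale.Agent.Results.P218.Dichotomy
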