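import Vale.Agent.P218.SymmFlow

/-! # Tangent flows modulo rotations, and symmetric flows

For every `m`-dimensional integral Brakke flow of finite mass in a Euclidean space `E` (in
particular for every weak flow of problem P218, where `E = ℝ³` and `m = 2`) and every space-time
point `(x₀, t₀)` with `t₀ > 0`: let `Γ` be a group of linear isometries such that the flow is
`Γ`-invariant about `x₀` at times just before `t₀`, or such that at least all tangent flows at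
`(x₀, t₀)` are `Γ`-invariant. Let `K` be a closed group of linear isometries such that every
linear isometry commuting with `Γ` lies in `K d Γ` for one of countably many `d`. Then either

* any two tangent flows at `(x₀, t₀)` differ by an element of `K` (and so the tangent flow is
  unique if `K` is trivial), or
* there are continuum many pairwise non-congruent tangent flows at `(x₀, t₀)`, and no tangent flow
  is isolated modulo linear isometries.

For `Γ` trivial and `K = SO(E)` this is a dichotomy for uniqueness modulo rotations. For symmetric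
flows it shows that uniqueness modulo rotations implies uniqueness in fixed coordinates as soon as
the centraliser of `Γ` is finite or countable modulo `Γ`. -/

open MeasureTheory Set Filter Topology
open scoped ENNReal

namespace Vale.Agent.Results.P218.Symmetry

open Vale.Agent.P218

/-- Main theorem. -/
theorem result {E : Type*} [NormedAddCommGroup E] [InnerProductSpace ℝ E] [FiniteDimensional ℝ E]
    [MeasurableSpace E] [BorelSpace E] (m : ℕ) (μ : ℝ → Measure E)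
    (hμ : IsIntegralBrakkeFlow m μ) (hfin : μ 0 univ < ⊤) (x₀ : E) (t₀ : ℝ) (ht₀ : 0 < t₀)
    (Γ K : Subgroup (E ≃ₗᵢ[ℝ] E)) (D : Set (E ≃ₗᵢ[ℝ] E))
    (hΓ : (∀ᶠ t in 𝓝[<] t₀, ∀ g ∈ Γ, (μ t).map (fun x => x₀ + g (x - x₀)) = μ t) ∨
      ∀ κ ∈ tangentSlices m μ x₀ t₀, ∀ g ∈ Γ, κ.map g = κ)
    (hK : IsClosedGroup K) (hD : D.Countable)
    (hΓK : ∀ z ∈ Subgroup.centralizer (Γ : Set (E ≃ₗᵢ[ℝ] E)),
      ∃ k ∈ K, ∃ d ∈ D, ∃ g ∈ Γ, z = k * d * g) :
    ((∀ κ ∈ tangentSlices m μ x₀ t₀, ∀ κ' ∈ tangentSlices m μ x₀ t₀, ∃ k ∈ K, κ' = κ.map k) ∧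
      (K = ⊥ → TangentFlowUnique m μ x₀ t₀)) ∨
    ((∃ Φ : ℝ → Measure E, (∀ c, Φ c ∈ tangentSlices m μ x₀ t₀) ∧
        ∀ c c', c ≠ c' → ∀ R : E ≃ₗᵢ[ℝ] E, Φ c' ≠ (Φ c).map R) ∧
      ∀ κ₀ ∈ tangentSlices m μ x₀ t₀, ∃ (κ : ℕ → Measure E) (R : ℕ → E ≃ₗᵢ[ℝ] E),
        (∀ n, κ n ∈ tangentSlices m μ x₀ t₀) ∧ (∀ n, ∀ S : E ≃ₗᵢ[ℝ] E, κ n ≠ κ₀.map S) ∧
          WeakTendsto (fun n => (κ n).map (R n)) κ₀) := by
  obtain ⟨T, H, hB⟩ := H552.exists_BF hμ
  have hS := H552.slow_NN hB hfin x₀ ht₀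
  obtain ⟨C, hG⟩ := gb_NN hB hfin x₀ ht₀
  have hL := H552.tangentSlices_eq hB hfin x₀ ht₀
  have hU := unique_iff hB hfin x₀ ht₀
  have hinv : ∀ κ ∈ tangentSlices m μ x₀ t₀, ∀ g ∈ Γ, κ.map g = κ := by
    rcases hΓ with h | h
    · intro κ hκ g hg
      exact map_eq_of_mem_tangentSlices (h.mono fun t ht => ht g hg) hκ
    · exact h
  rw [hL] at hinv hU ⊢
  by_cases hall : ∀ κ ∈ limitSet (H552.NN m μ x₀ t₀), ∀ κ' ∈ limitSet (H552.NN m μ x₀ t₀),
      ∃ R : E ≃ₗᵢ[ℝ] E, κ = κ'.map R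
  · left
    have h1 : ∀ κ ∈ limitSet (H552.NN m μ x₀ t₀), ∀ κ' ∈ limitSet (H552.NN m μ x₀ t₀),
        ∃ k ∈ K, κ' = κ.map (k : E ≃ₗᵢ[ℝ] E) := fun κ hκ κ' hκ' =>
      hS.congruent_of_symm hG Γ K hK hD hΓK hinv hall hκ' hκ
    refine ⟨h1, fun hbot => ?_⟩
    rw [hU]
    intro κ hκ κ' hκ'
    obtain ⟨k, hk, h2⟩ := h1 κ hκ κ' hκ'
    rw [hbot, Subgroup.mem_bot] at hk
    rw [h2, hk, map_one_iso]
  · right
    push Not at hall
    obtain ⟨κ₁, hκ₁, κ₂, hκ₂, hne⟩ := hall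
    exact ⟨hS.exists_family hG hκ₁ hκ₂ hne, fun κ₀ hκ₀ => hS.not_isolated hG hκ₁ hκ₂ hne hκ₀⟩

end Vale.Agent.Results.P218.Symmetry
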